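import Mathlib
import Crest.Prelude.Def_MultiMarginal

/-!
# Generic facts about `pairCost` / `tripleCost` (for S0175)

Symmetry, continuity, measurability, real-valued formulas, monotonicity and a quantitative
continuity estimate away from the diagonal.
-/

set_option autoImplicit false
open MeasureTheory
open scoped ENNReal
open Crest.AnalysisR.OT

namespace Crest.Agent.Helper91.OT3

section Cost

variable {E : Type*} [NormedAddCommGroup E]

lemma pairCost_comm (s : ℝ) (x y : E) : pairCost s x y = pairCost s y x := by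
  unfold pairCost
  rw [norm_sub_rev]

lemma tripleCost_apply (s : ℝ) (x y z : E) :
    tripleCost s (x, y, z) = pairCost s x y + pairCost s x z + pairCost s y z := rfl

lemma tripleCost_symm12 (s : ℝ) (x y z : E) : tripleCost s (y, x, z) = tripleCost s (x, y, z) := by
  simp only [tripleCost_apply]
  rw [pairCost_comm s y x, add_right_comm]

lemma tripleCost_symm23 (s : ℝ) (x y z : E) : tripleCost s (x, z, y) = tripleCost s (x, y, z) := by
  simp only [tripleCost_apply]
  rw [pairCost_comm s z y, add_comm (pairCost s x z) (pairCost s x y)]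

lemma continuous_pairCost (s : ℝ) : Continuous (fun p : E × E => pairCost s p.1 p.2) := by
  unfold pairCost
  exact ENNReal.continuous_rpow_const.comp
    (ENNReal.continuous_ofReal.comp (continuous_norm.comp (continuous_fst.sub continuous_snd)))

lemma continuous_tripleCost (s : ℝ) : Continuous (tripleCost s : E × E × E → ℝ≥0∞) := by
  have h12 : Continuous (fun p : E × E × E => pairCost s p.1 p.2.1) :=
    (continuous_pairCost s).comp (continuous_fst.prodMk (continuous_fst.comp continuous_snd))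
  have h13 : Continuous (fun p : E × E × E => pairCost s p.1 p.2.2) :=
    (continuous_pairCost s).comp (continuous_fst.prodMk (continuous_snd.comp continuous_snd))
  have h23 : Continuous (fun p : E × E × E => pairCost s p.2.1 p.2.2) :=
    (continuous_pairCost s).comp
      ((continuous_fst.comp continuous_snd).prodMk (continuous_snd.comp continuous_snd))
  exact (h12.add h13).add h23

lemma measurable_tripleCost [MeasurableSpace E] [BorelSpace E] [SecondCountableTopology E]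
    (s : ℝ) : Measurable (tripleCost s : E × E × E → ℝ≥0∞) :=
  (continuous_tripleCost s).measurable

lemma pairCost_eq_ofReal {s : ℝ} {x y : E} (h : x ≠ y) :
    pairCost s x y = ENNReal.ofReal (‖x - y‖ ^ (-s)) := by
  unfold pairCost
  exact ENNReal.ofReal_rpow_of_pos (norm_pos_iff.2 (sub_ne_zero.2 h))

lemma pairCost_self {s : ℝ} (hs : 0 < s) (x : E) : pairCost s x x = ⊤ := by
  unfold pairCost
  rw [sub_self, norm_zero, ENNReal.ofReal_zero]
  exact ENNReal.zero_rpow_of_neg (by linarith)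

lemma pairCost_pos {s : ℝ} (hs : 0 < s) (x y : E) : 0 < pairCost s x y := by
  by_cases h : x = y
  · rw [h, pairCost_self hs]
    exact ENNReal.zero_lt_top
  · rw [pairCost_eq_ofReal h]
    exact ENNReal.ofReal_pos.2 (Real.rpow_pos_of_pos (norm_pos_iff.2 (sub_ne_zero.2 h)) _)

lemma tripleCost_pos {s : ℝ} (hs : 0 < s) (p : E × E × E) : 0 < tripleCost s p := by
  unfold tripleCost
  exact lt_of_lt_of_le (pairCost_pos hs p.2.1 p.2.2) le_add_self

/-- close points are expensive -/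
lemma le_pairCost_of_norm_le {s : ℝ} (hs : 0 < s) {x y : E} {r : ℝ}
    (h : ‖x - y‖ ≤ r) : ENNReal.ofReal (r ^ (-s)) ≤ pairCost s x y := by
  by_cases hxy : x = y
  · rw [hxy, pairCost_self hs]
    exact le_top
  · rw [pairCost_eq_ofReal hxy]
    apply ENNReal.ofReal_le_ofReal
    exact Real.rpow_le_rpow_of_nonpos (norm_pos_iff.2 (sub_ne_zero.2 hxy)) h (by linarith)

/-- far points are cheap -/
lemma pairCost_le_of_le_norm {s : ℝ} (hs : 0 < s) {x y : E} {r : ℝ} (hr : 0 < r)
    (h : r ≤ ‖x - y‖) : pairCost s x y ≤ ENNReal.ofReal (r ^ (-s)) := by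
  have hxy : x ≠ y := by
    intro hxy
    rw [hxy, sub_self, norm_zero] at h
    linarith
  rw [pairCost_eq_ofReal hxy]
  apply ENNReal.ofReal_le_ofReal
  exact Real.rpow_le_rpow_of_nonpos hr h (by linarith)

/-- real-valued formula for the triple cost of three distinct points -/
lemma tripleCost_eq_ofReal {s : ℝ} {x y z : E} (hxy : x ≠ y) (hxz : x ≠ z) (hyz : y ≠ z) :
    tripleCost s (x, y, z) =
      ENNReal.ofReal (‖x - y‖ ^ (-s) + ‖x - z‖ ^ (-s) + ‖y - z‖ ^ (-s)) := by
  rw [tripleCost_apply, pairCost_eq_ofReal hxy, pairCost_eq_ofReal hxz, pairCost_eq_ofReal hyz]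
  have h1 : 0 ≤ ‖x - y‖ ^ (-s) := Real.rpow_nonneg (norm_nonneg _) _
  have h2 : 0 ≤ ‖x - z‖ ^ (-s) := Real.rpow_nonneg (norm_nonneg _) _
  have h3 : 0 ≤ ‖y - z‖ ^ (-s) := Real.rpow_nonneg (norm_nonneg _) _
  rw [ENNReal.ofReal_add (add_nonneg h1 h2) h3, ENNReal.ofReal_add h1 h2]

/-- `r ↦ r ^ (-s)` is Lipschitz with constant `s * r₀ ^ (-s-1)` on `[r₀, ∞)`. -/
lemma abs_rpow_neg_sub_le {s r₀ a b : ℝ} (hs : 0 < s) (hr : 0 < r₀) (ha : r₀ ≤ a)
    (hb : r₀ ≤ b) : |a ^ (-s) - b ^ (-s)| ≤ s * r₀ ^ (-s - 1) * |a - b| := by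
  have hconv : Convex ℝ (Set.Ici r₀) := convex_Ici r₀
  have hder : ∀ x ∈ Set.Ici r₀,
      HasDerivWithinAt (fun r : ℝ => r ^ (-s)) ((-s) * x ^ (-s - 1)) (Set.Ici r₀) x := by
    intro x hx
    have hx0 : x ≠ 0 := (lt_of_lt_of_le hr hx).ne'
    exact (Real.hasDerivAt_rpow_const (Or.inl hx0)).hasDerivWithinAt
  have hbound : ∀ x ∈ Set.Ici r₀, ‖(-s) * x ^ (-s - 1)‖ ≤ s * r₀ ^ (-s - 1) := by
    intro x hx
    have hxpos : 0 < x := lt_of_lt_of_le hr hx
    rw [norm_mul, Real.norm_eq_abs, Real.norm_eq_abs, abs_neg, abs_of_pos hs,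
      abs_of_nonneg (Real.rpow_nonneg hxpos.le _)]
    apply mul_le_mul_of_nonneg_left _ hs.le
    exact Real.rpow_le_rpow_of_nonpos hr hx (by linarith)
  have := hconv.norm_image_sub_le_of_norm_hasDerivWithin_le hder hbound hb ha
  simpa [Real.norm_eq_abs] using this

/-- quantitative continuity of the pair cost away from the diagonal -/
lemma pairCost_le_add {s r₀ : ℝ} (hs : 0 < s) (hr : 0 < r₀) {x y x' y' : E}
    (h : r₀ ≤ ‖x - y‖) (h' : r₀ ≤ ‖x' - y'‖) :
    pairCost s x' y' ≤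
      pairCost s x y + ENNReal.ofReal (s * r₀ ^ (-s - 1) * (‖x' - x‖ + ‖y' - y‖)) := by
  have hxy : x ≠ y := by
    intro hxy
    rw [hxy, sub_self, norm_zero] at h
    linarith
  have hxy' : x' ≠ y' := by
    intro hxy
    rw [hxy, sub_self, norm_zero] at h'
    linarith
  rw [pairCost_eq_ofReal hxy, pairCost_eq_ofReal hxy',
    ← ENNReal.ofReal_add (Real.rpow_nonneg (norm_nonneg _) _)
      (mul_nonneg (mul_nonneg hs.le (Real.rpow_nonneg hr.le _))
        (add_nonneg (norm_nonneg _) (norm_nonneg _)))]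
  apply ENNReal.ofReal_le_ofReal
  have h1 := abs_rpow_neg_sub_le hs hr h' h
  have h2 : |‖x' - y'‖ - ‖x - y‖| ≤ ‖x' - x‖ + ‖y' - y‖ := by
    calc |‖x' - y'‖ - ‖x - y‖| ≤ ‖(x' - y') - (x - y)‖ := abs_norm_sub_norm_le _ _
      _ = ‖(x' - x) - (y' - y)‖ := by congr 1; abel
      _ ≤ ‖x' - x‖ + ‖y' - y‖ := norm_sub_le _ _
  have h3 : 0 ≤ s * r₀ ^ (-s - 1) := mul_nonneg hs.le (Real.rpow_nonneg hr.le _)
  have h4 := le_trans h1 (mul_le_mul_of_nonneg_left h2 h3)
  have h5 := le_abs_self (‖x' - y'‖ ^ (-s) - ‖x - y‖ ^ (-s))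
  linarith

/-- quantitative continuity of the triple cost away from the diagonals: if all pair distances of
both triples are at least `r₀` and corresponding points are `η`-close, the costs differ by at most
`6 s r₀^(-s-1) η`. -/
lemma tripleCost_le_add {s r₀ η : ℝ} (hs : 0 < s) (hr : 0 < r₀) {x y z x' y' z' : E}
    (hxy : r₀ ≤ ‖x - y‖) (hxz : r₀ ≤ ‖x - z‖) (hyz : r₀ ≤ ‖y - z‖)
    (hxy' : r₀ ≤ ‖x' - y'‖) (hxz' : r₀ ≤ ‖x' - z'‖) (hyz' : r₀ ≤ ‖y' - z'‖)
    (hx : ‖x' - x‖ ≤ η) (hy : ‖y' - y‖ ≤ η) (hz : ‖z' - z‖ ≤ η) :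
    tripleCost s (x', y', z') ≤
      tripleCost s (x, y, z) + ENNReal.ofReal (6 * s * r₀ ^ (-s - 1) * η) := by
  have hK : 0 ≤ s * r₀ ^ (-s - 1) := mul_nonneg hs.le (Real.rpow_nonneg hr.le _)
  have hη : 0 ≤ η := le_trans (norm_nonneg _) hx
  have key : ∀ {a b a' b' : E}, r₀ ≤ ‖a - b‖ → r₀ ≤ ‖a' - b'‖ → ‖a' - a‖ ≤ η → ‖b' - b‖ ≤ η →
      pairCost s a' b' ≤ pairCost s a b + ENNReal.ofReal (2 * s * r₀ ^ (-s - 1) * η) := by
    intro a b a' b' h h' ha hb
    refine le_trans (pairCost_le_add hs hr h h') (add_le_add le_rfl (ENNReal.ofReal_le_ofReal ?_))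
    have := mul_le_mul_of_nonneg_left (add_le_add ha hb) hK
    linarith
  have e : ENNReal.ofReal (6 * s * r₀ ^ (-s - 1) * η) =
      ENNReal.ofReal (2 * s * r₀ ^ (-s - 1) * η) + ENNReal.ofReal (2 * s * r₀ ^ (-s - 1) * η)
        + ENNReal.ofReal (2 * s * r₀ ^ (-s - 1) * η) := by
    have h0 : 0 ≤ 2 * s * r₀ ^ (-s - 1) * η := by positivity
    rw [← ENNReal.ofReal_add h0 h0, ← ENNReal.ofReal_add (add_nonneg h0 h0) h0]
    congr 1
    ring
  rw [tripleCost_apply, tripleCost_apply, e]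
  have h1 := key hxy hxy' hx hy
  have h2 := key hxz hxz' hx hz
  have h3 := key hyz hyz' hy hz
  calc pairCost s x' y' + pairCost s x' z' + pairCost s y' z'
      ≤ (pairCost s x y + ENNReal.ofReal (2 * s * r₀ ^ (-s - 1) * η))
        + (pairCost s x z + ENNReal.ofReal (2 * s * r₀ ^ (-s - 1) * η))
        + (pairCost s y z + ENNReal.ofReal (2 * s * r₀ ^ (-s - 1) * η)) :=
        add_le_add (add_le_add h1 h2) h3
    _ = _ := by abel

end Cost

end Crest.Agent.Helper91.OT3
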